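import Crest.Agent.R330.BL.Gen

/-! # Row 330, block BL: the centre of mass inequality -/

set_option autoImplicit false
set_option linter.unusedSectionVars false
set_option linter.unusedSimpArgs false

noncomputable section

open MeasureTheory Filter Topology
open scoped InnerProductSpace ContDiff Matrix
open Crest.MathPhysics.MatrixQM (GammaNine)

namespace Crest.Agent.R330.BL

variable {E Z L H F : Type}
  [NormedAddCommGroup E] [InnerProductSpace ℝ E] [FiniteDimensional ℝ E]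
  [NormedAddCommGroup Z] [InnerProductSpace ℝ Z] [FiniteDimensional ℝ Z]
  [NormedAddCommGroup L] [InnerProductSpace ℝ L] [FiniteDimensional ℝ L]
  [NormedAddCommGroup H] [InnerProductSpace ℝ H] [FiniteDimensional ℝ H]
  [NormedAddCommGroup F] [InnerProductSpace ℂ F] [FiniteDimensional ℂ F]
  [MeasurableSpace E] [BorelSpace E] [MeasurableSpace Z] [BorelSpace Z]
  [MeasurableSpace L] [BorelSpace L] [MeasurableSpace H] [BorelSpace H]
  {P : Type} [Fintype P] {𝔤 : Lie E}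

theorem inner_mat {n : ℕ} (M : Matrix (Fin n) (Fin n) ℝ) (u v : T n Z) : ⟪u, mat M v⟫_ℝ =
    ∑ b, (fun α => ⟪stdOrthonormalBasis ℝ Z b, u α⟫_ℝ) ⬝ᵥ M *ᵥ fun α => ⟪stdOrthonormalBasis ℝ Z b, v α⟫_ℝ := by
  simp only [PiLp.inner_apply, mat_apply, inner_sum, inner_smul_right, dotProduct, Matrix.mulVec, Finset.mul_sum]
  refine (Finset.sum_congr rfl fun α _ => (Finset.sum_congr rfl fun β _ => ?_).trans Finset.sum_comm).trans
    Finset.sum_comm
  rw [← (stdOrthonormalBasis ℝ Z).sum_inner_mul_inner, Finset.mul_sum]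
  exact Finset.sum_congr rfl fun b _ => by rw [real_inner_comm (u α)]; ring

theorem trace_mat {n : ℕ} (M : Matrix (Fin n) (Fin n) ℝ) :
    LinearMap.trace ℝ (T n Z) (mat M) = M.trace * Module.finrank ℝ Z := by
  rw [← LinearMap.trace_id, ← trace_mat_lift]
  rfl

theorem norm_mat_sq {n : ℕ} (M : Matrix (Fin n) (Fin n) ℝ) (z : T n Z) : ‖mat M z‖ ^ 2 = ⟪z, mat (Mᵀ * M) z⟫_ℝ := by
  rw [mat_mul, ← adjoint_mat, LinearMap.comp_apply, LinearMap.adjoint_inner_right, real_inner_self_eq_norm_sq]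

/-- `|V₀|` -/
def N0 : Matrix (Fin 9) (Fin 9) ℝ := Matrix.diagonal ![2, 2, 4, 4, 2, 2, 4, 4, 0]

theorem V0_sq : V0ᵀ * V0 = N0ᵀ * N0 := by
  ext i j
  fin_cases i <;> fin_cases j <;> simp [V0, pl, N0, Matrix.mul_apply, Fin.sum_univ_succ, Matrix.single_apply]

theorem Cov.osc {g : X Z → F} {Dv : X Z → X Z → F} (h : Cov g Dv) (μ : ℝ) :
    ∫ z, (μ * (24 * Module.finrank ℝ Z) - μ ^ 2 * ‖mat V0 z‖ ^ 2) * ‖g z‖ ^ 2 ≤
      ∫ z, ∑ i, ‖Dv z (stdOrthonormalBasis ℝ (X Z) i)‖ ^ 2 := by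
  refine h.vf isOpen_univ (Set.subset_univ _) (LinearMap.toContinuousLinearMap (μ • mat N0)).contDiff.contDiffOn
    fun z _ => ?_
  rw [ContinuousLinearMap.fderiv, LinearMap.coe_toContinuousLinearMap, LinearMap.coe_toContinuousLinearMap', map_smul,
    trace_mat, LinearMap.smul_apply, norm_smul, mul_pow, norm_mat_sq, norm_mat_sq, V0_sq, Real.norm_eq_abs, sq_abs, N0,
    Matrix.trace_diagonal]
  simp only [Fin.sum_univ_succ, Matrix.cons_val_zero, Matrix.cons_val_succ]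
  norm_num

/-- the abelian Lie algebra -/
def ab (Z : Type) [NormedAddCommGroup Z] [InnerProductSpace ℝ Z] : Lie Z :=
  ⟨0, by simp, by simp, by simp⟩

theorem lift_zero (n : ℕ) : lift n (0 : Z →ₗ[ℝ] Z) = 0 := by
  ext
  simp

/-- centre of mass potential -/
abbrev wc (σ : Spn) (ε : ℝ) (z : X Z) : Th Z := ε • cmap σ.G σ.s (mat V0 z)

theorem wd_ab (σ : Spn) (ε : ℝ) : wd (ab Z) σ ε (fun _ => 0) = wc σ ε := by
  funext z
  ext
  simp [wd, wpot, ab]

theorem wc_smooth (σ : Spn) (ε : ℝ) : ContDiff ℝ ∞ (wc σ ε : X Z → Th Z) :=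
  wd_ab (Z := Z) σ ε ▸ contDiff_wd _ σ ε contDiff_const

theorem yuk_ab (σ : Spn) (ε : ℝ) (z : X Z) : yuk (ab Z) σ ε (fun _ => 0) z = -(ε • mat (σ.G.γ 8 * sig σ.G V0)) := by
  simp [yuk, ab, lift_zero]

theorem cm_sq (C : Cl (Th Z) F) (σ : Spn) (ε : ℝ) {g : X Z → F} (hg : Core g) (z : X Z) :
    dirac C (cmap σ.G σ.s) (wc σ ε) (dirac C (cmap σ.G σ.s) (wc σ ε) g) z = (-1 / 2 : ℂ) • lap g z +
      (((ε ^ 2 * ‖mat V0 z‖ ^ 2 / 2 : ℝ) : ℂ) • g z + (ε : ℂ) • (C.iS (-mat (σ.G.γ 8 * sig σ.G V0)) (g z) -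
        Complex.I • (fderiv ℝ g z (mat V0 z) - C.S (mat (sig σ.G V0)) (g z)))) := by
  have h1 := adjoint_cmap_wd (ab Z) σ ε (fun _ => 0) z
  have h2 := dwd_skew (ab Z) σ ε (f := fun _ => 0) (x := z) (differentiableAt_const _) (by simp)
  have h3 : (fderiv ℝ (wc σ ε) z).toLinearMap = ε • (cmap σ.G σ.s ∘ₗ (mat V0 : X Z →ₗ[ℝ] X Z)) :=
    congrArg _ (LinearMap.toContinuousLinearMap (ε • (cmap σ.G σ.s ∘ₗ (mat V0 : X Z →ₗ[ℝ] X Z)))).fderiv
  rw [wd_ab] at h1 h2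
  have h4 : (fderiv ℝ (wc σ ε) z).toLinearMap ∘ₗ LinearMap.adjoint (cmap σ.G σ.s) =
      -(cmap σ.G σ.s ∘ₗ LinearMap.adjoint (fderiv ℝ (wc σ ε : X Z → Th Z) z).toLinearMap) := by
    rw [h3, map_smulₛₗ, LinearMap.adjoint_comp, adjoint_mat, V0_skew, ← neg_one_smul ℝ V0, mat_smul]
    simp [LinearMap.comp_smul, LinearMap.smul_comp, LinearMap.comp_assoc, mat_smul]
  have h5 := congrArg C.S h2
  rw [h4, yuk_ab, C.S_sub, C.S_neg, C.S_add, C.S_sub, C.S_neg, C.S_smul, C.S_smul, show (ab Z).br (z 8) = 0 from rfl,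
    lift_zero, C.S_zero] at h5
  have h6 := DFunLike.congr_fun h5 (g z)
  rw [dirac_sq C _ (norm_cmap σ.G σ.unit) ((wc_smooth σ ε).differentiable (by simp) z) (contDiff_infty.1 hg.1 2).contDiffAt,
    h1, show (ab Z).br (z 8) = 0 from rfl, lift_zero, norm_smul, norm_cmap σ.G σ.unit, mul_pow, Real.norm_eq_abs, sq_abs,
    Cl.iS, C.S_neg]
  simp only [LinearMap.zero_apply, sub_zero, map_smul, sub_apply, add_apply, neg_apply, smul_apply,
    ← Complex.coe_smul] at h6 ⊢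
  push_cast
  linear_combination (norm := module) Complex.I • h6

variable (D : Levi 𝔤 Z L H P) (C : Cl (Th E) F) (σ : Spn)

theorem Pi_sa (G : GammaNine) {z : X Z} (hz : z ∈ D.reg) : IsSelfAdjoint (D.Pi C G z) :=
  (D.CH C).vac_sa (D.isCx_J G hz)

theorem cm_lower {ε m : ℝ} (hε : 0 ≤ ε) {g : X Z → F} {z : X Z} (hz : z ∈ D.reg) (hPi : D.Pi C σ.G z (g z) = g z)
    (h : ε = 0 ∨ 0 ≤ m ∧ fderiv ℝ g z (mat V0 z) = (D.CZ C).S (mat (sig σ.G V0)) (g z) +
      (D.CH C).S (mat (sig σ.G V0)) (g z) + ((m : ℂ) * Complex.I) • g z) :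
    (ε ^ 2 * ‖mat V0 z‖ ^ 2 / 2 - 10 * Module.finrank ℝ Z * ε) * ‖g z‖ ^ 2 ≤
      (⟪g z, ((ε ^ 2 * ‖mat V0 z‖ ^ 2 / 2 : ℝ) : ℂ) • g z + (ε : ℂ) • ((D.CZ C).iS (-mat (σ.G.γ 8 * sig σ.G V0)) (g z) -
        Complex.I • (fderiv ℝ g z (mat V0 z) - (D.CZ C).S (mat (sig σ.G V0)) (g z)))⟫_ℂ).re := by
  rcases h with rfl | ⟨hm, h⟩
  · simp
  obtain ⟨B, b1, b2, b3⟩ := σ.exists_abs_sig
  have h1 := (D.CZ C).iS_lower (A := -mat (σ.G.γ 8 * sig σ.G V0)) (B := mat B)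
    (by simpa [yuk_ab] using isSkew_yuk (ab Z) σ 1 (f := fun _ => 0) z (by simp))
    (fun u v => by rw [← LinearMap.adjoint_inner_right, adjoint_mat, b1]) (fun u v => by
      have := Finset.sum_le_sum fun b (_ : b ∈ Finset.univ) => b3 (fun α => ⟪stdOrthonormalBasis ℝ Z b, u α⟫_ℝ)
        fun α => ⟪stdOrthonormalBasis ℝ Z b, (-v) α⟫_ℝ
      rw [← Finset.mul_sum, Finset.sum_add_distrib, ← inner_mat, ← inner_mat, ← inner_mat] at this
      simpa using this) (g z)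
  have h2 : ⟪g z, (D.CH C).S (mat (sig σ.G V0)) (g z)⟫_ℂ = 0 := by
    have := DFunLike.congr_fun (D.Pi_S_mat_Pi C σ.G hz (sig_skew σ.G V0_skew)) (g z)
    rw [← hPi, (Pi_sa D C σ.G hz).isSymmetric.apply_clm]
    exact (congrArg _ this).trans (inner_zero_right _)
  rw [trace_mat, b2] at h1
  rw [h, add_assoc, add_sub_cancel_left]
  simp only [inner_add_right, inner_sub_right, inner_smul_right, h2, inner_self_eq_norm_sq_to_K, zero_add,
    Complex.coe_algebraMap, ← Complex.ofReal_pow]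
  simp only [Complex.add_re, Complex.sub_re, Complex.mul_re, Complex.mul_im, Complex.I_re, Complex.I_im,
    Complex.ofReal_re, Complex.ofReal_im]
  nlinarith [mul_le_mul_of_nonneg_left h1 hε, mul_nonneg hε (mul_nonneg hm (sq_nonneg ‖g z‖))]

theorem pair_hardy (p : P) : ∃ b : ℝ, 0 ≤ b ∧ ∀ (g : X Z → F) (Dv : X Z → X Z → F), Cov g Dv → tsupport g ⊆ D.reg →
    ∫ z, 1 / D.M p z ^ 2 * ‖g z‖ ^ 2 ≤ b * ∫ z, ∑ i, ‖Dv z (stdOrthonormalBasis ℝ (X Z) i)‖ ^ 2 := by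
  obtain ⟨u, hu⟩ : ∃ u : Z, ∀ v, ⟪u, v⟫_ℝ = D.α p v := ⟨(InnerProductSpace.toDual ℝ Z).symm
    (LinearMap.toContinuousLinearMap (D.α p)), fun v => InnerProductSpace.toDual_symm_apply⟩
  have h1 : ∀ z, D.M p z ^ 2 = ∑ i, D.α p (z i) ^ 2 := fun z => Real.sq_sqrt (by positivity)
  refine ⟨(49 / 4 * ‖u‖ ^ 2)⁻¹, by positivity, fun g Dv h hs => ?_⟩
  rcases eq_or_ne u 0 with rfl | h0
  · simp [h1, ← hu]
  have h2 : ∀ z, ⟪z, lift 9 ((D.α p).smulRight u) z⟫_ℝ = D.M p z ^ 2 := fun z => by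
    simp only [h1, PiLp.inner_apply, lift_apply, LinearMap.smulRight_apply, inner_smul_right, real_inner_comm u, hu, sq]
  have := h.hardy (lift 9 ((D.α p).smulRight u)) (fun a b => by
    simp only [PiLp.inner_apply, lift_apply, LinearMap.smulRight_apply, inner_smul_right, inner_smul_left,
      real_inner_comm u, hu, conj_trivial, mul_comm]) (a := ‖u‖ ^ 2) (fun z => by
    simp only [h2, h1, PiLp.norm_sq_eq_of_L2, lift_apply, LinearMap.smulRight_apply, norm_smul, mul_pow,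
      Real.norm_eq_abs, sq_abs, Finset.mul_sum, mul_comm]) (by
    have := trace_mat_lift (1 : Matrix (Fin 9) (Fin 9) ℝ) ((D.α p).smulRight u)
    rw [mat_one, LinearMap.id_comp, LinearMap.trace_smulRight, ← hu, real_inner_self_eq_norm_sq] at this
    simp [this]) fun z hz => by rw [h2]; exact pow_pos (hs hz p) 2
  rw [le_inv_mul_iff₀ (by positivity)]
  simpa only [h2] using this

theorem cm_ineq : ∃ β : ℝ, 0 < β ∧ ∀ (ε m : ℝ) (g : X Z → F), 0 ≤ ε → Core g → (∀ z, D.Pi C σ.G z (g z) = g z) →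
    (∀ z ∈ tsupport g, z ≠ 0 ∧ z ∈ D.reg) → (ε = 0 ∨ 0 ≤ m ∧ ∀ z, fderiv ℝ g z (mat V0 z) =
      (D.CZ C).S (mat (sig σ.G V0)) (g z) + (D.CH C).S (mat (sig σ.G V0)) (g z) + ((m : ℂ) * Complex.I) • g z) →
    ∫ z, (49 / 40 / ‖z‖ ^ 2 + ε / 5 + β * ∑ p, 1 / D.M p z ^ 2) * ‖g z‖ ^ 2 ≤
      ∫ z, ‖D.Pi C σ.G z (dirac (D.CZ C) (cmap σ.G σ.s) (wc σ ε) g z)‖ ^ 2 := by
  choose b b0 hb using pair_hardy (F := F) D
  have hb0 : 0 ≤ ∑ p, b p := Finset.sum_nonneg fun p _ => b0 p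
  refine ⟨31 / 800 / (1 + ∑ p, b p), by positivity, fun ε m g hε hg hPi hs h => ?_⟩
  rcases (tsupport g).eq_empty_or_nonempty with h0 | ⟨z₀, h0⟩
  · rw [tsupport_eq_empty_iff] at h0
    simpa [h0] using integral_nonneg fun z => sq_nonneg _
  have hr : (1 : ℝ) ≤ Module.finrank ℝ Z := by
    have := nontrivial_of_ne _ _ (hs z₀ h0).1
    have h1 := Module.finrank_pos (R := ℝ) (M := X Z)
    rw [finrank_T] at h1
    exact_mod_cast Nat.pos_of_mul_pos_left h1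
  have g0 : ∀ z, z ∉ tsupport g → g z = 0 := fun z => image_eq_zero_of_notMem_tsupport
  have d0 : ∀ z, z ∉ tsupport g → fderiv ℝ g z = 0 := fun z => fderiv_of_notMem_tsupport ℝ
  have hP := D.contDiffOn_Pi C σ.G
  have c1 := hg.1.continuous
  have c2 := hg.1.continuous_fderiv (by simp)
  have hc : Cov g fun z v => D.Pi C σ.G z (fderiv ℝ g z v) := by
    refine ⟨hg, fun z v => ?_, fun v => ?_, fun z hz v => by simp [d0 z hz]⟩
    · by_cases hz : z ∈ tsupport g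
      · rw [← (Pi_sa D C σ.G (hs z hz).2).isSymmetric.apply_clm, hPi]
      · simp [g0 z hz]
    · exact contDiff_zero.1 (contDiff_of_support (isClosed_tsupport g) D.isOpen_reg (fun z hz => (hs z hz).2)
        (fun z hz => by simp [d0 z hz]) (contDiffOn_zero.2 (hP.continuousOn.clm_apply (by fun_prop))))
  have iw : ∀ {a : X Z → ℝ}, ContinuousOn a (tsupport g) → Integrable fun z => a z * ‖g z‖ ^ 2 := fun ha =>
    int_of_supp hg.2 (ha.mul (by fun_prop)) fun z hz => by simp [g0 z hz]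
  have cV : Continuous fun z : X Z => mat V0 z := LinearMap.continuous_of_finiteDimensional _
  have i1 : Integrable fun z => ∑ i, ‖D.Pi C σ.G z (fderiv ℝ g z (stdOrthonormalBasis ℝ (X Z) i))‖ ^ 2 :=
    int_of_supp hg.2 (continuous_finsetSum _ fun i _ => (hc.cont _).norm.pow 2).continuousOn fun z hz => by
      simp [d0 z hz]
  have i2 : Integrable fun z => 1 / 2 * gsq g z := int_of_supp hg.2 (Continuous.continuousOn (by
    unfold gsq; fun_prop)) fun z hz => by simp [gsq, d0 z hz]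
  have hQ := hg.dirac (D.CZ C) (cmap σ.G σ.s) (wc_smooth σ ε)
  have i3 : Integrable fun z => ‖dirac (D.CZ C) (cmap σ.G σ.s) (wc σ ε) g z‖ ^ 2 :=
    int_of_supp hQ.2 (hQ.1.continuous.norm.pow 2).continuousOn fun z hz => by
      simp [image_eq_zero_of_notMem_tsupport hz]
  have i4 := iw (a := fun z => ε ^ 2 * ‖mat V0 z‖ ^ 2) (by fun_prop)
  have i5 := iw (a := fun _ => 1) continuousOn_const
  have i6 := iw (a := fun z => 1 / ‖z‖ ^ 2) (continuousOn_const.div (by fun_prop) fun z hz =>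
    pow_ne_zero 2 (norm_ne_zero_iff.2 (hs z hz).1))
  have i7 := fun p => iw (a := fun z => 1 / D.M p z ^ 2) (continuousOn_const.div ((D.continuous_M p).pow 2).continuousOn
    fun z hz => pow_ne_zero 2 ((hs z hz).2 p).ne')
  have e1 : ∫ z, ‖D.Pi C σ.G z (dirac (D.CZ C) (cmap σ.G σ.s) (wc σ ε) g z)‖ ^ 2 =
      (∫ z, ‖dirac (D.CZ C) (cmap σ.G σ.s) (wc σ ε) g z‖ ^ 2) - (∫ z, 1 / 2 * gsq g z) +
        1 / 2 * ∫ z, ∑ i, ‖D.Pi C σ.G z (fderiv ℝ g z (stdOrthonormalBasis ℝ (X Z) i))‖ ^ 2 := by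
    rw [← integral_const_mul, ← integral_sub i3 i2, ← integral_add (i3.sub' i2) (i1.const_mul _)]
    refine integral_congr_ae (Eventually.of_forall fun z => ?_)
    by_cases hz : z ∈ tsupport g
    · have hz' := (hs z hz).2
      have hF := D.fderiv_Pi C σ.G hz'
      refine proj_sq _ (norm_cmap σ.G σ.unit) (Pi_sa D C σ.G hz') (D.Pi_comm_Z C σ.G z) (fun v => (hF v v).2.1)
        (fun v => (hF v v).1) (fun v => (hF v v).2.2.2.2.1) (fun v v' => (hF v v').2.2.2.1) (hPi z) (fun v => ?_) _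
      have := hasF_capp ((hP.contDiffAt (D.isOpen_reg.mem_nhds hz')).differentiableAt (by simp)).hasFDerivAt
        (hg.1.differentiable (by simp) z).hasFDerivAt v
      rwa [show (fun y => D.Pi C σ.G y (g y)) = g from funext hPi, add_comm] at this
    · simp [dirac, gsq, g0 z hz, d0 z hz]
  have e2 := energy_eq (D.CZ C) (cmap σ.G σ.s) (wc_smooth σ ε) hg _ (cm_sq (D.CZ C) σ ε hg)
  have e3 : ∫ z, (1 / 2 * gsq g z + (1 / 2 * (ε ^ 2 * ‖mat V0 z‖ ^ 2 * ‖g z‖ ^ 2) -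
      10 * Module.finrank ℝ Z * ε * (1 * ‖g z‖ ^ 2))) ≤ _ := (integral_mono (i2.fun_add ((i4.const_mul _).sub'
        (i5.const_mul _))) (i2.fun_add (int_of_supp hg.2 (by fun_prop) fun z hz => by simp [g0 z hz])) fun z => by
    refine add_le_add le_rfl ?_
    by_cases hz : z ∈ tsupport g
    · exact le_of_eq_of_le (by ring) (cm_lower D C σ hε (hs z hz).2 (hPi z) (h.imp_right fun h => ⟨h.1, h.2 z⟩))
    · simp [g0 z hz]).trans_eq e2.symm
  have e4 := hc.osc (20 / 17 * ε)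
  have e5 := hc.hardy LinearMap.id (fun _ _ => rfl) (a := 1) (fun z => by simp [real_inner_self_eq_norm_sq])
    (by rw [LinearMap.trace_id, finrank_T]; push_cast; linarith) fun z hz => real_inner_self_pos.2 (hs z hz).1
  have e6 := Finset.sum_le_sum fun p (_ : p ∈ Finset.univ) => hb p g _ hc fun z hz => (hs z hz).2
  have e7 : 0 ≤ ∫ z, ∑ i, ‖D.Pi C σ.G z (fderiv ℝ g z (stdOrthonormalBasis ℝ (X Z) i))‖ ^ 2 :=
    integral_nonneg fun z => by positivity
  have e8 : 0 ≤ ∫ z, 1 * ‖g z‖ ^ 2 := integral_nonneg fun z => by positivity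
  rw [integral_add i2 ((i4.const_mul _).sub' (i5.const_mul _)), integral_sub (i4.const_mul _) (i5.const_mul _)] at e3
  rw [show (fun z => _) = fun z => 20 / 17 * ε * (24 * Module.finrank ℝ Z) * (1 * ‖g z‖ ^ 2) -
    (20 / 17) ^ 2 * (ε ^ 2 * ‖mat V0 z‖ ^ 2 * ‖g z‖ ^ 2) from funext fun z => by ring,
    integral_sub (i5.const_mul _) (i4.const_mul _)] at e4
  simp only [LinearMap.id_apply, real_inner_self_eq_norm_sq] at e5
  rw [show (fun z => _) = fun z => 49 / 40 * (1 / ‖z‖ ^ 2 * ‖g z‖ ^ 2) + ε / 5 * (1 * ‖g z‖ ^ 2) +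
    31 / 800 / (1 + ∑ p, b p) * ∑ p, 1 / D.M p z ^ 2 * ‖g z‖ ^ 2 from funext fun z => by rw [← Finset.sum_mul]; ring,
    integral_add ((i6.const_mul _).fun_add (i5.const_mul _)) ((integrable_finsetSum _ fun p _ => i7 p).const_mul _),
    integral_add (i6.const_mul _) (i5.const_mul _), e1]
  simp only [integral_const_mul, integral_finsetSum _ fun p _ => i7 p, one_mul] at e3 e4 e8 ⊢
  rw [← Finset.sum_mul] at e6
  have e9 := (mul_le_mul_of_nonneg_left (e6.trans (mul_le_mul_of_nonneg_right (le_add_of_nonneg_left zero_le_one) e7))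
    (show 0 ≤ 31 / 800 / (1 + ∑ p, b p) by positivity)).trans_eq (by rw [← mul_assoc, div_mul_cancel₀ _ (by positivity)])
  nlinarith [mul_le_mul_of_nonneg_right hr (mul_nonneg hε e8)]

end Crest.Agent.R330.BL
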