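import Crest.Agent.R330.BL.Gen

/-! # Row 330, block BL: partial Dirac operators on a product are orthogonal -/

set_option autoImplicit false
set_option linter.unusedSectionVars false
set_option linter.unusedSimpArgs false

noncomputable section

open MeasureTheory Filter Topology
open scoped InnerProductSpace ContDiff Matrix

namespace Crest.Agent.R330.BL

variable {A B Θ F : Type} [NormedAddCommGroup A] [InnerProductSpace ℝ A] [FiniteDimensional ℝ A]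
  [MeasurableSpace A] [BorelSpace A] [NormedAddCommGroup B] [InnerProductSpace ℝ B] [FiniteDimensional ℝ B]
  [MeasurableSpace B] [BorelSpace B]
  [NormedAddCommGroup Θ] [InnerProductSpace ℝ Θ] [FiniteDimensional ℝ Θ]
  [NormedAddCommGroup F] [InnerProductSpace ℂ F] [FiniteDimensional ℂ F]

theorem d_fst {f : A × B → F} (hf : Differentiable ℝ f) (q : A × B) (a : A) :
    fderiv ℝ (fun z => f (z, q.2)) q.1 a = fderiv ℝ f q (a, 0) :=
  DFunLike.congr_fun (HasFDerivAt.comp (f := fun z => (z, q.2)) q.1 (hf q).hasFDerivAt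
    (hasFDerivAt_prodMk_left q.1 q.2)).fderiv a

theorem d_snd {f : A × B → F} (hf : Differentiable ℝ f) (q : A × B) (b : B) :
    fderiv ℝ (fun l => f (q.1, l)) q.2 b = fderiv ℝ f q (0, b) :=
  DFunLike.congr_fun (HasFDerivAt.comp (f := fun l => (q.1, l)) q.2 (hf q).hasFDerivAt
    (hasFDerivAt_prodMk_right q.1 q.2)).fderiv b

theorem core_fst {f : A × B → F} (hf : Core f) (l : B) : Core fun z => f (z, l) :=
  ⟨hf.1.comp (contDiff_prodMk_left l), hf.2.comp_isClosedEmbedding 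
    (Isometry.of_dist_eq (f := fun z => (z, l)) fun _ _ => by simp).isClosedEmbedding⟩

theorem core_snd {f : A × B → F} (hf : Core f) (z : A) : Core fun l => f (z, l) :=
  ⟨hf.1.comp (contDiff_prodMk_right z), hf.2.comp_isClosedEmbedding 
    (Isometry.of_dist_eq (f := fun l => (z, l)) fun _ _ => by simp).isClosedEmbedding⟩

/-- the Dirac operator in the first variable -/
def Q1 (C : Cl Θ F) (c : A →ₗ[ℝ] Θ) (w : A → Θ) (f : A × B → F) (q : A × B) : F := dirac C c w (fun z => f (z, q.2)) q.1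

/-- the Dirac operator in the second variable -/
def Q2 (C : Cl Θ F) (c : B →ₗ[ℝ] Θ) (w : B → Θ) (f : A × B → F) (q : A × B) : F := dirac C c w (fun l => f (q.1, l)) q.2

variable (C : Cl Θ F)

theorem Q1_eq (c : A →ₗ[ℝ] Θ) (w : A → Θ) {f : A × B → F} (hf : Differentiable ℝ f) (q : A × B) : Q1 C c w f q =
    ∑ i, (-Complex.I) • C.θ (c (stdOrthonormalBasis ℝ A i)) (fderiv ℝ f q (stdOrthonormalBasis ℝ A i, 0)) +
      C.θ (w q.1) (f q) := by simp only [Q1, dirac, d_fst hf]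

theorem Q2_eq (c : B →ₗ[ℝ] Θ) (w : B → Θ) {f : A × B → F} (hf : Differentiable ℝ f) (q : A × B) : Q2 C c w f q =
    ∑ i, (-Complex.I) • C.θ (c (stdOrthonormalBasis ℝ B i)) (fderiv ℝ f q (0, stdOrthonormalBasis ℝ B i)) +
      C.θ (w q.2) (f q) := by simp only [Q2, dirac, d_snd hf]

theorem Q1_zero (c : A →ₗ[ℝ] Θ) (w : A → Θ) {f : A × B → F} (hf : Differentiable ℝ f) {q : A × B}
    (hq : q ∉ tsupport f) : Q1 C c w f q = 0 := by
  simp [Q1_eq C c w hf, image_eq_zero_of_notMem_tsupport hq, fderiv_of_notMem_tsupport ℝ hq]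

theorem Q2_zero (c : B →ₗ[ℝ] Θ) (w : B → Θ) {f : A × B → F} (hf : Differentiable ℝ f) {q : A × B}
    (hq : q ∉ tsupport f) : Q2 C c w f q = 0 := by
  simp [Q2_eq C c w hf, image_eq_zero_of_notMem_tsupport hq, fderiv_of_notMem_tsupport ℝ hq]

theorem Q1_cont (c : A →ₗ[ℝ] Θ) {w : A → Θ} (hw : Continuous w) {f : A × B → F} (hf : ContDiff ℝ ∞ f) :
    Continuous (Q1 C c w f) := by
  have h1 := hf.continuous
  have h2 := hf.continuous_fderiv (by simp)
  have h3 := C.contDiff_θ.continuous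
  rw [funext (Q1_eq C c w (hf.differentiable (by simp)))]
  fun_prop

theorem Q2_cont (c : B →ₗ[ℝ] Θ) {w : B → Θ} (hw : Continuous w) {f : A × B → F} (hf : ContDiff ℝ ∞ f) :
    Continuous (Q2 C c w f) := by
  have h1 := hf.continuous
  have h2 := hf.continuous_fderiv (by simp)
  have h3 := C.contDiff_θ.continuous
  rw [funext (Q2_eq C c w (hf.differentiable (by simp)))]
  fun_prop

theorem cross {c₁ : A →ₗ[ℝ] Θ} {c₂ : B →ₗ[ℝ] Θ} {w₁ : A → Θ} {w₂ : B → Θ} (h₁ : ContDiff ℝ ∞ w₁) (h₂ : ContDiff ℝ ∞ w₂)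
    (o1 : ∀ a b, ⟪c₁ a, c₂ b⟫_ℝ = 0) (o2 : ∀ a b, ⟪c₁ a, w₂ b⟫_ℝ = 0) (o3 : ∀ a b, ⟪w₁ a, c₂ b⟫_ℝ = 0)
    (o4 : ∀ a b, ⟪w₁ a, w₂ b⟫_ℝ = 0) {f : A × B → F} (hf : Core f) :
    ∫ q, (⟪Q1 C c₁ w₁ f q, Q2 C c₂ w₂ f q⟫_ℂ).re = 0 := by
  let e := WithLp.prodContinuousLinearEquiv 2 ℝ A B
  let p₁ := (ContinuousLinearMap.fst ℝ A B).comp e.toContinuousLinearMap
  let p₂ := (ContinuousLinearMap.snd ℝ A B).comp e.toContinuousLinearMap
  have hd := hf.1.differentiable (by simp)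
  have hψ : Core (f ∘ e) := ⟨hf.1.comp e.contDiff, hf.2.comp_homeomorph e.toHomeomorph⟩
  have e0 : ∀ y v, fderiv ℝ (f ∘ e) y v = fderiv ℝ f (e y) (e v) := fun y v =>
    DFunLike.congr_fun ((hd _).hasFDerivAt.comp y e.hasFDerivAt).fderiv v
  have e1 : ∀ y, dirac C (c₁ ∘ₗ p₁.toLinearMap) (w₁ ∘ p₁) (f ∘ e) y = Q1 C c₁ w₁ f (e y) := fun y => by
    rw [dirac_eq_sum _ _ _ _ _ ((stdOrthonormalBasis ℝ A).prod (stdOrthonormalBasis ℝ B)), Q1_eq _ _ _ hd]
    simp [e0, e, p₁]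
  have e2 : ∀ y, dirac C (c₂ ∘ₗ p₂.toLinearMap) (w₂ ∘ p₂) (f ∘ e) y = Q2 C c₂ w₂ f (e y) := fun y => by
    rw [dirac_eq_sum _ _ _ _ _ ((stdOrthonormalBasis ℝ A).prod (stdOrthonormalBasis ℝ B)), Q2_eq _ _ _ hd]
    simp [e0, e, p₂]
  have k₁ := h₁.comp p₁.contDiff
  have k₂ := h₂.comp p₂.contDiff
  have q₁ := hψ.dirac C (c₁ ∘ₗ p₁.toLinearMap) k₁
  have q₂ := hψ.dirac C (c₂ ∘ₗ p₂.toLinearMap) k₂
  have ii : ∀ {a b : WithLp 2 (A × B) → F}, Core a → Core b → Integrable fun y => ⟪a y, b y⟫_ℂ := fun ha hb =>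
    int_of_supp ha.2 (ha.1.continuous.inner hb.1.continuous).continuousOn fun y hy => by
      simp [image_eq_zero_of_notMem_tsupport hy]
  have a0 : ∀ {I : Type} [NormedAddCommGroup I] [InnerProductSpace ℝ I] [FiniteDimensional ℝ I]
      {J : Type} [NormedAddCommGroup J] [InnerProductSpace ℝ J] [FiniteDimensional ℝ J] (c : I →ₗ[ℝ] Θ) {w : J → Θ}
      (p : WithLp 2 (A × B) →L[ℝ] I) (p' : WithLp 2 (A × B) →L[ℝ] J), ContDiff ℝ ∞ w →
      (∀ y, ∃ v, p' v = 0 ∧ ⟪v, y⟫_ℝ = ‖p y‖ ^ 2) → ∀ y,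
      (c ∘ₗ p.toLinearMap) ∘ₗ LinearMap.adjoint (fderiv ℝ (w ∘ p') y).toLinearMap = 0 := fun c w p p' hw h y => by
    ext u
    obtain ⟨v, h1, h2⟩ := h (LinearMap.adjoint (fderiv ℝ (w ∘ p') y).toLinearMap u)
    rw [LinearMap.adjoint_inner_right, ((hw.differentiable (by simp) _).hasFDerivAt.comp y p'.hasFDerivAt).fderiv] at h2
    simp only [ContinuousLinearMap.coe_coe, ContinuousLinearMap.comp_apply, h1, map_zero, inner_zero_left] at h2
    rw [((hw.differentiable (by simp) _).hasFDerivAt.comp y p'.hasFDerivAt).fderiv]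
    exact (congrArg c (norm_eq_zero.1 (pow_eq_zero_iff two_ne_zero |>.1 h2.symm))).trans (map_zero c)
  have a1 : ∀ y, dirac C (c₁ ∘ₗ p₁.toLinearMap) (w₁ ∘ p₁) (dirac C (c₂ ∘ₗ p₂.toLinearMap) (w₂ ∘ p₂) (f ∘ e)) y +
      dirac C (c₂ ∘ₗ p₂.toLinearMap) (w₂ ∘ p₂) (dirac C (c₁ ∘ₗ p₁.toLinearMap) (w₁ ∘ p₁) (f ∘ e)) y = 0 := fun y => by
    rw [dirac_anticomm C _ _ (k₁.differentiable (by simp) y) (k₂.differentiable (by simp) y)
      (contDiff_infty.1 hψ.1 2).contDiffAt, a0 c₁ p₁ p₂ h₂ fun y => ⟨WithLp.toLp 2 (p₁ y, 0), rfl, by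
        simp [p₁, e, real_inner_self_eq_norm_sq]⟩, a0 c₂ p₂ p₁ h₁ fun y => ⟨WithLp.toLp 2 (0, p₂ y), rfl, by
        simp [p₂, e, real_inner_self_eq_norm_sq]⟩,
      show LinearMap.adjoint (c₁ ∘ₗ p₁.toLinearMap) ((w₂ ∘ p₂) y) = 0 from ext_inner_left ℝ fun v => by
        rw [LinearMap.adjoint_inner_right, inner_zero_right]; exact o2 _ _,
      show LinearMap.adjoint (c₂ ∘ₗ p₂.toLinearMap) ((w₁ ∘ p₁) y) = 0 from ext_inner_right ℝ fun v => by
        rw [LinearMap.adjoint_inner_left, inner_zero_left]; exact o3 _ _]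
    simp [o1, o4, C.S_zero]
  have s1 := dirac_symm C (c₁ ∘ₗ p₁.toLinearMap) k₁.continuous (hψ.1.of_le (by simp)) (q₂.1.of_le (by simp)) (.inl hψ.2)
  have s2 := dirac_symm C (c₂ ∘ₗ p₂.toLinearMap) k₂.continuous (hψ.1.of_le (by simp)) (q₁.1.of_le (by simp)) (.inl hψ.2)
  have s3 := congrArg₂ (· + ·) s1 s2
  simp only [← integral_add (ii q₁ q₂) (ii q₂ q₁), ← integral_add (ii hψ (q₂.dirac C _ k₁)) (ii hψ (q₁.dirac C _ k₂)),
    ← inner_add_right, a1, inner_zero_right, integral_zero] at s3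
  simp only [e1, e2, ← inner_conj_symm (Q2 C c₂ w₂ f _), Complex.add_conj, integral_complex_ofReal,
    Complex.ofReal_eq_zero, integral_const_mul, mul_eq_zero, two_ne_zero, false_or] at s3
  exact ((WithLp.volume_preserving_ofLp A B).integral_comp (MeasurableEquiv.toLp 2 _).symm.measurableEmbedding
    _).symm.trans s3

end Crest.Agent.R330.BL
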