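import Crest.Agent.R330.IB0

/-! # Row 330, block BL: generic lemmas (Hardy inequality, projected square, parametric integrals) -/

set_option autoImplicit false
set_option linter.unusedSectionVars false
set_option linter.unusedSimpArgs false

noncomputable section

open MeasureTheory Filter Topology
open scoped InnerProductSpace ContDiff Matrix

namespace Crest.Agent.R330.BL

theorem int_of_supp {Q W : Type} [TopologicalSpace Q] [T2Space Q] [MeasurableSpace Q] [OpensMeasurableSpace Q]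
    [NormedAddCommGroup W] [SecondCountableTopologyEither Q W] {μ : Measure Q} [IsFiniteMeasureOnCompacts μ] {K : Set Q}
    (hK : IsCompact K) {h : Q → W} (hc : ContinuousOn h K) (h0 : ∀ x, x ∉ K → h x = 0) : Integrable h μ :=
  (integrableOn_iff_integrable_of_support_subset fun x hx => by_contra fun hx' => hx (h0 x hx')).1
    (hc.integrableOn_compact hK)

theorem fub_fst {A B : Type} [MeasureSpace A] [MeasureSpace B] [SFinite (volume : Measure A)]
    [SFinite (volume : Measure B)] {a b : A × B → ℝ} (ha : Integrable a) (hb : Integrable b)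
    (h : ∀ l, ∫ z, a (z, l) ≤ ∫ z, b (z, l)) : ∫ q, a q ≤ ∫ q, b q := by
  rw [Measure.volume_eq_prod] at *
  rw [integral_prod_symm _ ha, integral_prod_symm _ hb]
  exact integral_mono ha.integral_prod_right hb.integral_prod_right h

theorem fub_snd {A B : Type} [MeasureSpace A] [MeasureSpace B] [SFinite (volume : Measure A)]
    [SFinite (volume : Measure B)] {a b : A × B → ℝ} (ha : Integrable a) (hb : Integrable b)
    (h : ∀ z, ∫ l, a (z, l) ≤ ∫ l, b (z, l)) : ∫ q, a q ≤ ∫ q, b q := by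
  rw [Measure.volume_eq_prod] at *
  rw [integral_prod _ ha, integral_prod _ hb]
  exact integral_mono ha.integral_prod_left hb.integral_prod_left h

theorem fderiv_int {B W : Type} [NormedAddCommGroup B] [NormedSpace ℝ B] [FiniteDimensional ℝ B] [NormedAddCommGroup W]
    [NormedSpace ℝ W] [CompleteSpace W] {f : ℝ × B → W} (hf : ContDiff ℝ ∞ f) (x v : B) :
    fderiv ℝ (fun x => ∫ t in (0 : ℝ)..1, f (t, x)) x v = ∫ t in (0 : ℝ)..1, fderiv ℝ (fun x => f (t, x)) x v := by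
  have hc : Continuous fun p : ℝ × B => (fderiv ℝ f p).comp (ContinuousLinearMap.inr ℝ ℝ B) :=
    (hf.continuous_fderiv (by simp)).clm_comp continuous_const
  have hd : ∀ t x, HasFDerivAt (fun x => f (t, x)) ((fderiv ℝ f (t, x)).comp (ContinuousLinearMap.inr ℝ ℝ B)) x :=
    fun t x => (hf.differentiable (by simp) (t, x)).hasFDerivAt.comp x (hasFDerivAt_prodMk_right t x)
  have := FiniteDimensional.proper_real B
  obtain ⟨C, hC⟩ := ((isCompact_uIcc (a := (0 : ℝ)) (b := 1)).prod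
    (isCompact_closedBall x 1)).exists_bound_of_continuousOn hc.continuousOn
  rw [(intervalIntegral.hasFDerivAt_integral_of_dominated_of_fderiv_le (μ := volume) (F := fun x t => f (t, x))
    (F' := fun x t => (fderiv ℝ f (t, x)).comp (ContinuousLinearMap.inr ℝ ℝ B)) (bound := fun _ => C)
    (Metric.closedBall_mem_nhds x one_pos)
    (Eventually.of_forall fun x => (hf.continuous.comp (Continuous.prodMk_left x)).aestronglyMeasurable)
    ((hf.continuous.comp (Continuous.prodMk_left x)).intervalIntegrable _ _)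
    (hc.comp (Continuous.prodMk_left x)).aestronglyMeasurable
    (Eventually.of_forall fun s hs x hx => hC (s, x) ⟨Set.uIoc_subset_uIcc hs, hx⟩) intervalIntegrable_const
    (Eventually.of_forall fun s _ x _ => hd s x)).fderiv]
  simp only [(hd _ _).fderiv]
  exact ContinuousLinearMap.intervalIntegral_apply ((hc.comp (Continuous.prodMk_left x)).intervalIntegrable _ _) v

variable {Y Θ F : Type} [NormedAddCommGroup Y] [InnerProductSpace ℝ Y] [FiniteDimensional ℝ Y]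
  [MeasurableSpace Y] [BorelSpace Y]
  [NormedAddCommGroup Θ] [InnerProductSpace ℝ Θ] [FiniteDimensional ℝ Θ]
  [NormedAddCommGroup F] [InnerProductSpace ℂ F] [FiniteDimensional ℂ F]

theorem hasF_capp {B : Type} [NormedAddCommGroup B] [NormedSpace ℝ B] {A : B → F →L[ℂ] F} {A' : B →L[ℝ] F →L[ℂ] F}
    {u : B → F} {u' : B →L[ℝ] F} {x : B} (hA : HasFDerivAt A A' x) (hu : HasFDerivAt u u' x) (v : B) :
    fderiv ℝ (fun y => A y (u y)) x v = A x (u' v) + A' v (u x) :=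
  DFunLike.congr_fun (((ContinuousLinearMap.restrictScalarsL ℂ F F ℝ ℝ).hasFDerivAt.comp x hA).clm_apply hu).fderiv v

theorem contDiff_capp {B : Type} [NormedAddCommGroup B] [NormedSpace ℝ B] {A : B → F →L[ℂ] F} {u : B → F}
    (hA : ContDiff ℝ ∞ A) (hu : ContDiff ℝ ∞ u) : ContDiff ℝ ∞ fun y => A y (u y) :=
  ((ContinuousLinearMap.restrictScalarsL ℂ F F ℝ ℝ).contDiff.comp hA).clm_apply hu

/-- a covariant gradient -/
structure Cov (f : Y → F) (Dv : Y → Y → F) : Prop where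
  core : Core f
  re : ∀ x v, (⟪f x, Dv x v⟫_ℂ).re = (⟪f x, fderiv ℝ f x v⟫_ℂ).re
  cont : ∀ v, Continuous fun x => Dv x v
  zero : ∀ x, x ∉ tsupport f → ∀ v, Dv x v = 0

theorem Cov.vf {f : Y → F} {Dv : Y → Y → F} (h : Cov f Dv) {U : Set Y} (hU : IsOpen U) (hs : tsupport f ⊆ U)
    {W : Y → Y} (hW : ContDiffOn ℝ 1 W U) {a : Y → ℝ}
    (ha : ∀ x ∈ U, LinearMap.trace ℝ Y (fderiv ℝ W x).toLinearMap - ‖W x‖ ^ 2 = a x) :
    ∫ x, a x * ‖f x‖ ^ 2 ≤ ∫ x, ∑ i, ‖Dv x (stdOrthonormalBasis ℝ Y i)‖ ^ 2 := by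
  have := vf_ineq LinearMap.id (h.core.1.of_le (by simp)) h.core.2 Dv h.re h.cont h.zero hU hs
    (ϖ := fun _ => 1) contDiffOn_const (fun _ _ => zero_le_one) (by simp) hW
  simp only [one_mul, LinearMap.comp_id] at this
  refine le_of_eq_of_le (integral_congr_ae (Eventually.of_forall fun x => ?_)) this
  by_cases hx : x ∈ U
  · simp only [ha x hx]
  · simp [image_eq_zero_of_notMem_tsupport fun h => hx (hs h)]

/-- Hardy inequality for a quadratic form of rank at least nine -/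
theorem Cov.hardy {f : Y → F} {Dv : Y → Y → F} (h : Cov f Dv) (N : Y →ₗ[ℝ] Y) (hN : ∀ u v, ⟪N u, v⟫_ℝ = ⟪u, N v⟫_ℝ)
    {a : ℝ} (ha : ∀ z, ‖N z‖ ^ 2 = a * ⟪z, N z⟫_ℝ) (htr : 9 * a ≤ LinearMap.trace ℝ Y N)
    (hs : ∀ z ∈ tsupport f, 0 < ⟪z, N z⟫_ℝ) :
    49 / 4 * a * ∫ z, 1 / ⟪z, N z⟫_ℝ * ‖f z‖ ^ 2 ≤ ∫ z, ∑ i, ‖Dv z (stdOrthonormalBasis ℝ Y i)‖ ^ 2 := by
  obtain ⟨M, rfl⟩ : ∃ M : Y →L[ℝ] Y, N = M.toLinearMap := ⟨LinearMap.toContinuousLinearMap N, rfl⟩
  simp only [ContinuousLinearMap.coe_coe] at *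
  have hq : ContDiff ℝ 1 fun z => ⟪z, M z⟫_ℝ := contDiff_id.inner ℝ M.contDiff
  refine le_trans ?_ (h.vf (isOpen_lt continuous_const hq.continuous) hs (W := fun z => (7 / 2 * (⟪z, M z⟫_ℝ)⁻¹) • M z)
    ((contDiffOn_const.mul (hq.contDiffOn.inv fun z hz => ne_of_gt hz)).smul M.contDiff.contDiffOn)
    (a := fun z => (7 / 2 * (LinearMap.trace ℝ Y M.toLinearMap - 2 * a) - 49 / 4 * a) * (1 / ⟪z, M z⟫_ℝ)) fun z hz => ?_)
  · simp only [mul_assoc _ (1 / ⟪_, _⟫_ℝ)]
    rw [integral_const_mul]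
    refine mul_le_mul_of_nonneg_right (by linarith) (integral_nonneg fun z => ?_)
    by_cases hz : z ∈ tsupport f
    · have := hs z hz
      positivity
    · simp [image_eq_zero_of_notMem_tsupport hz]
  have h0 : ⟪z, M z⟫_ℝ ≠ 0 := ne_of_gt hz
  have h1 := (((hasDerivAt_inv h0).comp_hasFDerivAt z ((hasFDerivAt_id z).inner ℝ M.hasFDerivAt)).const_mul
    (7 / 2)).smul M.hasFDerivAt
  rw [show fderiv ℝ (fun z => (7 / 2 * (⟪z, M z⟫_ℝ)⁻¹) • M z) z = _ from h1.fderiv, norm_smul, mul_pow, ha,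
    ContinuousLinearMap.toLinearMap_add, map_add, ContinuousLinearMap.toLinearMap_smul, map_smul,
    show ∀ (φ : Y →L[ℝ] ℝ) (y : Y), (φ.smulRight y).toLinearMap = φ.toLinearMap.smulRight y from fun _ _ => rfl,
    LinearMap.trace_smulRight]
  simp only [ContinuousLinearMap.coe_coe, smul_apply, ContinuousLinearMap.comp_apply, fderivInnerCLM_apply,
    ContinuousLinearMap.prod_apply, id, ContinuousLinearMap.id_apply, smul_eq_mul, Function.comp, ← hN z (M z),
    real_inner_self_eq_norm_sq, ha, Real.norm_eq_abs, sq_abs]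
  field_simp
  ring

theorem pyth {P : F →L[ℂ] F} (hP : IsSelfAdjoint P) (y : F) {n : F} (hn : P n = 0) :
    ‖n + P y‖ ^ 2 = ‖n‖ ^ 2 + ‖P y‖ ^ 2 := by
  rw [@norm_add_sq ℂ, ← hP.isSymmetric.apply_clm]
  simp [hn]

/-- the square of a projected Dirac operator (flat Berry connection) -/
theorem proj_sq (C : Cl Θ F) {c : Y →ₗ[ℝ] Θ} (hc : ∀ v, ‖c v‖ = ‖v‖) {P : F →L[ℂ] F} (hP : IsSelfAdjoint P)
    (hθ : ∀ a, P * C.θ a = C.θ a * P) {T : Y → F →L[ℂ] F} (hT : ∀ v, IsSelfAdjoint (T v))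
    (hT0 : ∀ v, P * T v * P = 0) (hTθ : ∀ v a, T v * C.θ a = C.θ a * T v)
    (hTT : ∀ v v', P * (T v * T v' - T v' * T v) * P = 0) {g : Y → F} {x : Y} (hx : P (g x) = g x)
    (hd : ∀ v, fderiv ℝ g x v = T v (g x) + P (fderiv ℝ g x v)) (w : Y → Θ) :
    ‖P (dirac C c w g x)‖ ^ 2 = ‖dirac C c w g x‖ ^ 2 - 1 / 2 * gsq g x +
      1 / 2 * ∑ i, ‖P (fderiv ℝ g x (stdOrthonormalBasis ℝ Y i))‖ ^ 2 := by
  classical
  set e := stdOrthonormalBasis ℝ Y
  have pθ : ∀ a y, P (C.θ a y) = C.θ a (P y) := fun a y => congrArg (· y) (hθ a)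
  have tθ : ∀ v a y, T v (C.θ a y) = C.θ a (T v y) := fun v a y => congrArg (· y) (hTθ v a)
  have a0 : ∀ v, P (T v (g x)) = 0 := fun v => by simpa [hx] using congrArg (· (g x)) (hT0 v)
  have h1 : dirac C c w g x = (-Complex.I) • (∑ i, C.θ (c (e i)) (T (e i) (g x))) + P (dirac C c w g x) := by
    simp only [dirac, map_add, map_sum, map_smul, pθ, hx, Finset.smul_sum, ← add_assoc, ← Finset.sum_add_distrib]
    simp only [← smul_add, ← map_add, ← hd, e]
  have h2 : ∀ i j, ⟪C.θ (c (e i)) (T (e i) (g x)), C.θ (c (e j)) (T (e j) (g x))⟫_ℂ =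
      ⟪g x, C.θ (c (e i)) (C.θ (c (e j)) (P (T (e i) (T (e j) (g x)))))⟫_ℂ := fun i j => by
    rw [C.inner_θ, (hT _).isSymmetric.apply_clm, tθ, tθ, ← pθ, ← pθ, ← hP.isSymmetric.apply_clm, hx]
  have h3 : ∀ i j, P (T (e j) (T (e i) (g x))) = P (T (e i) (T (e j) (g x))) := fun i j => by
    simpa [hx, sub_eq_zero] using congrArg (· (g x)) (hTT (e j) (e i))
  have h4 : ∀ i j, ⟪C.θ (c (e i)) (T (e i) (g x)), C.θ (c (e j)) (T (e j) (g x))⟫_ℂ +
      ⟪C.θ (c (e j)) (T (e j) (g x)), C.θ (c (e i)) (T (e i) (g x))⟫_ℂ =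
      if i = j then ((‖T (e i) (g x)‖ ^ 2 : ℝ) : ℂ) else 0 := fun i j => by
    have : ∀ y, C.θ (c (e i)) (C.θ (c (e j)) y) + C.θ (c (e j)) (C.θ (c (e i)) y) =
        ((⟪c (e i), c (e j)⟫_ℝ : ℝ) : ℂ) • y := DFunLike.congr_fun (C.anti (c (e i)) (c (e j)))
    rw [h2, h2, h3 i j, ← inner_add_right, this, (LinearMap.norm_map_iff_inner_map_map c).1 hc,
      orthonormal_iff_ite.1 e.orthonormal, inner_smul_right]
    split_ifs with h
    · subst h
      rw [← hP.isSymmetric.apply_clm, hx, ← (hT _).isSymmetric.apply_clm, inner_self_eq_norm_sq_to_K]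
      simp
    · simp
  have h5 : ‖∑ i, C.θ (c (e i)) (T (e i) (g x))‖ ^ 2 = 1 / 2 * ∑ i, ‖T (e i) (g x)‖ ^ 2 := by
    have := Finset.sum_congr rfl fun i (_ : i ∈ Finset.univ) => Finset.sum_congr rfl fun j (_ : j ∈ Finset.univ) => h4 i j
    simp only [Finset.sum_add_distrib, ← inner_sum, ← sum_inner, Finset.sum_ite_eq, Finset.mem_univ, if_true,
      inner_self_eq_norm_sq_to_K] at this
    have h : (‖∑ i, C.θ (c (e i)) (T (e i) (g x))‖ ^ 2 + ‖∑ i, C.θ (c (e i)) (T (e i) (g x))‖ ^ 2 : ℝ) =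
        ∑ i, ‖T (e i) (g x)‖ ^ 2 := Complex.ofReal_injective (by simpa using this)
    linarith
  have h6 : gsq g x = ∑ i, ‖T (e i) (g x)‖ ^ 2 + ∑ i, ‖P (fderiv ℝ g x (e i))‖ ^ 2 := by
    rw [gsq, ← Finset.sum_add_distrib]
    exact Finset.sum_congr rfl fun i _ => by rw [← pyth hP _ (a0 _), ← hd]
  have h7 := pyth hP (dirac C c w g x) (n := (-Complex.I) • ∑ i, C.θ (c (e i)) (T (e i) (g x))) (by simp [pθ, a0])
  rw [← h1, norm_smul, norm_neg, Complex.norm_I, one_mul, h5] at h7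
  rw [h7, h6]
  ring

/-- transport of a Dirac operator along a compatible symmetry -/
theorem dirac_conj (C : Cl Θ F) (c : Y →ₗ[ℝ] Θ) (w : Y → Θ) (R : Y →L[ℝ] Y) (U : F →L[ℂ] F) (hR : ∀ x, ‖R x‖ = ‖x‖)
    (hc : ∀ x, U * C.θ (c x) = C.θ (c (R x)) * U) (hw : ∀ x, U * C.θ (w x) = C.θ (w (R x)) * U) {φ ψ : Y → F}
    (hφ : Differentiable ℝ φ) (hψ : Differentiable ℝ ψ) (h : ∀ x, ψ (R x) = U (φ x)) (x : Y) :
    dirac C c w ψ (R x) = U (dirac C c w φ x) := by
  have h1 : ∀ v, fderiv ℝ ψ (R x) (R v) = U (fderiv ℝ φ x v) := fun v => by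
    have := ((hψ _).hasFDerivAt.comp x R.hasFDerivAt).unique ((((U.restrictScalars ℝ).hasFDerivAt).comp x
      (hφ x).hasFDerivAt).congr_of_eventuallyEq (Eventually.of_forall h))
    exact congrArg (· v) this
  rw [dirac_eq_sum C c w ψ _ ((stdOrthonormalBasis ℝ Y).map
    (LinearIsometry.toLinearIsometryEquiv ⟨R.toLinearMap, hR⟩ rfl)), dirac, map_add, map_sum, h]
  congr 1
  · refine Finset.sum_congr rfl fun i _ => ?_
    rw [map_smul]
    exact congrArg _ ((congrArg _ (h1 _)).trans (DFunLike.congr_fun (hc _) _).symm)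
  · exact (DFunLike.congr_fun (hw _) _).symm

end Crest.Agent.R330.BL
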